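import Mathlib
import Vale.Agent.Lib.P038.Gap

/-!
Every nonempty finite oriented graph has a vertex `f` with
`|N⁺(f)| ≤ |N⁺⁺(f)| + |excess(f)|`, where `excess(f)` is the set of vertices `x` farther than two
from `f` such that at least two out-neighbours of `f` form a double-blocked missing edge with `x`.
-/

namespace Vale.Agent.Results.P038.DefectMedian

open Vale.Agent.Lib.P038

/-- The defect inequality for Seymour's second neighbourhood problem. -/
theorem result {V : Type*} [Fintype V] [Nonempty V] (r : V → V → Prop)
    (hr : ∀ u v, r u v → ¬ r v u) :
    ∃ f : V, (out r f).card ≤ (second r f).card + (excess r f).card :=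
  defect_inequality r hr

end Vale.Agent.Results.P038.DefectMedian
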