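import Mathlib
import Vale.Agent.Lib.P038.SatK.All

/-!
Seymour's second neighbourhood property for oriented graphs of small minimum out-degree: a finite
oriented graph with some out-degree at most seven has a vertex `f` with `|N⁺(f)| ≤ |N⁺⁺(f)|`.
-/

namespace Vale.Agent.Results.P038.MinOutAtMostSeven

open Vale.Agent.Lib.P038

/-- Every finite oriented graph having a vertex of out-degree at most seven has a vertex whose
second out-neighbourhood is at least as large as its first out-neighbourhood. -/
theorem result {V : Type*} [Fintype V] (r : V → V → Prop) (hr : ∀ u v, r u v → ¬ r v u)
    (v : V) (hv : (out r v).card ≤ 7) :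
    ∃ f : V, (out r f).card ≤ (second r f).card := by
  by_contra hc
  push Not at hc
  exact Vale.Agent.Lib.P038.SatK.atMostSeven hr hc hv

end Vale.Agent.Results.P038.MinOutAtMostSeven
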