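import Mathlib
import Vale.Agent.Lib.P038.Sat.All

/-!
Seymour's second neighbourhood property for oriented graphs of minimum out-degree seven: a finite
oriented graph with all out-degrees at least seven and some out-degree exactly seven has a vertex
`f` with `|N⁺(f)| ≤ |N⁺⁺(f)|`.
-/

namespace Vale.Agent.Results.P038.MinOutSeven

open Vale.Agent.Lib.P038

/-- Every finite oriented graph of minimum out-degree exactly seven has a vertex whose second
out-neighbourhood is at least as large as its first out-neighbourhood. -/
theorem result {V : Type*} [Fintype V] (r : V → V → Prop) (hr : ∀ u v, r u v → ¬ r v u)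
    (hmin : ∀ u, 7 ≤ (out r u).card) (v : V) (hv : (out r v).card = 7) :
    ∃ f : V, (out r f).card ≤ (second r f).card := by
  by_contra hc
  push Not at hc
  exact Vale.Agent.Lib.P038.Sat.seven hr hc hmin hv

end Vale.Agent.Results.P038.MinOutSeven
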