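import Mathlib
import Vale.Agent.Lib.P038.Gap

/-!
Seymour's second neighbourhood property for oriented graphs in which no vertex `x` outside the
radius-two ball of a vertex `f` forms double-blocked missing edges with two out-neighbours of `f`.
This contains the oriented graphs whose double-blocked missing edges form a matching.
-/

namespace Vale.Agent.Results.P038.SeymourNoExcess

open Vale.Agent.Lib.P038

/-- A vertex with `|N⁺| ≤ |N⁺⁺|` exists under the no-excess hypothesis. -/
theorem result {V : Type*} [Fintype V] [Nonempty V] (r : V → V → Prop)
    (hr : ∀ u v, r u v → ¬ r v u)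
    (h : ∀ f x u₁ u₂, ¬ Near r f x → r f u₁ → r f u₂ → DoubleBlocked r u₁ x →
      DoubleBlocked r u₂ x → u₁ = u₂) :
    ∃ f : V, (out r f).card ≤ (second r f).card :=
  exists_seymour_of_no_excess r hr h

end Vale.Agent.Results.P038.SeymourNoExcess
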