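import Mathlib
import Vale.Agent.Lib.P038.StarForest

/-!
Seymour's second neighbourhood property for oriented graphs whose missing edges form a vertex
disjoint union of stars: every tournament missing a star forest has a vertex `f` with
`|N⁺(f)| ≤ |N⁺⁺(f)|`.
-/

namespace Vale.Agent.Results.P038.StarForest

open Vale.Agent.Lib.P038

/-- A nonempty finite oriented graph whose missing edges form a star forest has a vertex whose
second out-neighbourhood is at least as large as its first out-neighbourhood. -/
theorem result {V : Type*} [Fintype V] [Nonempty V] (r : V → V → Prop)
    (hr : ∀ u v, r u v → ¬ r v u) (hs : MissingStarForest r) :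
    ∃ f : V, (out r f).card ≤ (second r f).card :=
  exists_seymour_star_forest r hr hs

end Vale.Agent.Results.P038.StarForest
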